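import Vale.Agent.P088.R2.H673.S3.SC

/-!
# P088, stage 3, P4: the weighted integral of the residuals
-/

open MeasureTheory Set Filter
open scoped ContDiff Matrix Topology

noncomputable section

namespace Vale.Agent.P088.HY.S3

open Vale.Agent.P088.LR Vale.Agent.P088.HY.QM

variable {n : ℕ}

theorem pw5 {Wz wz s N D u l a b c1 C1 cw A m S U : ℝ} (hcw : 0 < cw) (hc1 : 0 < c1) (hs : 0 ≤ s)
    (hb : 0 ≤ b) (hD : 0 ≤ D) (hU : |u| ≤ U)
    (hS : (2 * D + b) * U + b * l + (a + m) * l ≤ 2 * S)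
    (hW : (N - D) * u + c1 * Real.exp (2 * (l + u)) * s - C1 ≤ Wz)
    (hw : cw * Real.exp (-(b * l) - b * |u|) ≤ wz) :
    Real.exp (-(2 * Wz)) * (A * Real.exp (N * u - S)) ^ 2 / wz ≤
      A ^ 2 * Real.exp (2 * C1) / cw * Real.exp (-((a + m) * l)) := by
  have h1 : Real.exp (-(2 * Wz)) ≤ Real.exp (-(2 * ((N - D) * u - C1))) := by
    refine Real.exp_le_exp.2 ?_
    have : 0 ≤ c1 * Real.exp (2 * (l + u)) * s := by positivity
    linarith
  refine (div_le_div₀ (by positivity) (mul_le_mul_of_nonneg_right h1 (sq_nonneg _))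
    (mul_pos hcw (Real.exp_pos _)) hw).trans ?_
  rw [div_le_iff₀ (mul_pos hcw (Real.exp_pos _)), mul_pow, ← Real.exp_nat_mul]
  have e0 : 2 * D * u + b * |u| + b * l - 2 * S ≤ -((a + m) * l) := by
    have h2 : D * u ≤ D * |u| := mul_le_mul_of_nonneg_left (le_abs_self _) hD
    have h3 : (2 * D + b) * |u| ≤ (2 * D + b) * U := mul_le_mul_of_nonneg_left hU (by linarith)
    nlinarith
  have e1 : Real.exp (-(2 * ((N - D) * u - C1))) * Real.exp ((2 : ℕ) * (N * u - S)) ≤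
      Real.exp (2 * C1) * Real.exp (-((a + m) * l)) * Real.exp (-(b * l) - b * |u|) := by
    rw [← Real.exp_add, ← Real.exp_add, ← Real.exp_add]
    refine Real.exp_le_exp.2 ?_
    push_cast
    linarith
  calc Real.exp (-(2 * ((N - D) * u - C1))) * (A ^ 2 * Real.exp ((2 : ℕ) * (N * u - S)))
      = A ^ 2 * (Real.exp (-(2 * ((N - D) * u - C1))) * Real.exp ((2 : ℕ) * (N * u - S))) := by ring
    _ ≤ A ^ 2 * (Real.exp (2 * C1) * Real.exp (-((a + m) * l)) * Real.exp (-(b * l) - b * |u|)) :=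
        mul_le_mul_of_nonneg_left e1 (by positivity)
    _ = _ := by
      field_simp

/-- The form of the bound of the residual. -/
def FD (u : V n → ℝ) (l N q A1 A2 r S U : ℝ) (F : VV n → ℝ) (z : VV n) : Prop :=
  ∃ T1 T2 : ℝ, |F z| ≤ T1 + T2 ∧
    (T1 = 0 ∨ (-(3 / 4 * l) ≤ u z.1 ∧
      T1 = A1 * Real.exp (N * u z.1 - q * |u z.1|) * ‖z.1 - z.2‖ ^ 2)) ∧
    (T2 = 0 ∨ ((r ^ 2 ≤ sq (z.1 - z.2) ∨ u z.1 < -(3 / 4 * l)) ∧ T2 = A2 * Real.exp (N * u z.1)) ∨
      (|u z.1| ≤ U ∧ T2 = A2 * Real.exp (N * u z.1 - S)))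

/-- The core of step S6 with a smaller near set. -/
theorem s6c {O : Set (V n)} (hO : IsOpen O) {v : ℝ} (hv0 : 0 ≤ v)
    (hv : volume O ≤ ENNReal.ofReal v) {u : V n → ℝ} (hu : ContinuousOn u O)
    {l a b D q N c1 C1 cw S U r A1 A2 : ℝ} (p : ℕ) (hl : 0 ≤ l) (ha : 0 ≤ a) (hb : 0 ≤ b)
    (hD : 2 * b + a + (n + 4 : ℕ) ≤ D) (hq : b + 2 * D + (n + 4 : ℕ) ≤ 2 * q)
    (hp : 2 * D + 2 * b + 2 * (n + 4 : ℕ) ≤ p) (hc1 : 0 < c1) (hcw : 0 < cw) (hr : 0 < r)
    (hS : (2 * D + b) * U + b * l + (a + (n + 4 : ℕ)) * l ≤ 2 * S)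
    {W w F : VV n → ℝ} {Nr : Set (VV n)} (hNr : Nr ⊆ O ×ˢ O)
    (hF0 : ∀ z, F z ≠ 0 → z ∈ Nr)
    (hF : ∀ z ∈ Nr, FD u l N q A1 A2 r S U F z)
    (hW : ∀ z ∈ Nr,
      (N - D) * u z.1 + c1 * Real.exp (2 * (l + u z.1)) * sq (z.1 - z.2) - C1 ≤ W z)
    (hw1 : ∀ z ∈ Nr, -(3 / 4 * l) ≤ u z.1 → cw * Real.exp (a * l - b * |u z.1|) ≤ w z)
    (hw2 : ∀ z ∈ Nr, cw * Real.exp (-(b * l) - b * |u z.1|) ≤ w z) :
    ∃ g : VV n → ℝ, Integrable g ∧ (∀ z, 0 ≤ Wt W w F z ∧ Wt W w F z ≤ g z) ∧ ∫ z, g z ≤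
      2 * (Real.exp (2 * C1) / cw * Real.exp (-((a + (n + 4 : ℕ)) * l))) *
        (A1 ^ 2 * (∫ x : V n, gs 1 x) / √c1 ^ (n + 4) * v +
          A2 ^ 2 * (1 + p.factorial / (2 * c1 * r ^ 2) ^ p) * v ^ 2) := by
  have hm : (0 : ℝ) ≤ (n + 4 : ℕ) := Nat.cast_nonneg _
  have hD0 : 0 ≤ D := by linarith
  set X := Real.exp (-((a + (n + 4 : ℕ)) * l)) with hX
  have hX0 : 0 < X := Real.exp_pos _
  set Y := Real.exp (2 * C1) / cw with hY
  have hY0 : 0 < Y := div_pos (Real.exp_pos _) hcw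
  set Q : ℝ := p.factorial / (2 * c1 * r ^ 2) ^ p with hQ
  have hQ0 : 0 ≤ Q := by positivity
  set Cst := A2 ^ 2 * Y * (1 + Q) * X with hC
  have hC0 : 0 ≤ Cst := by positivity
  have hnn : ∀ z ∈ Nr, 0 < w z := fun z h1 =>
    lt_of_lt_of_le (mul_pos hcw (Real.exp_pos _)) (hw2 z h1)
  have h0 : ∀ z, 0 ≤ Wt W w F z := by
    intro z
    unfold Wt
    by_cases hz : F z = 0
    · simp [hz]
    · exact div_nonneg (by positivity) (hnn z (hF0 z hz)).le
  have hPP0 : ∀ x ∈ O, 0 ≤ PP a b D q A1 Y l u x := fun x _ => by unfold PP; positivity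
  have hpt : ∀ z, Wt W w F z ≤ 2 * fG O (PP a b D q A1 Y l u) (TT c1 l u) z +
      2 * (O ×ˢ O).indicator (fun _ => Cst) z := by
    intro z
    have hI0 : 0 ≤ (O ×ˢ O).indicator (fun _ => Cst) z := indicator_nonneg (fun _ _ => hC0) z
    have hG0 : 0 ≤ fG O (PP a b D q A1 Y l u) (TT c1 l u) z := fG_nonneg hPP0 z
    by_cases hz : F z = 0
    · have : Wt W w F z = 0 := by simp [Wt, hz]
      rw [this]
      positivity
    have h2 := hF0 z hz
    have h1 := hNr h2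
    obtain ⟨T1, T2, g1, g2, g3⟩ := hF z h2
    have hw := hnn z h2
    refine (sq_split (Real.exp_pos _).le hw g1).trans (add_le_add ?_ ?_)
    · refine mul_le_mul_of_nonneg_left ?_ (by norm_num)
      rcases g2 with g2 | ⟨g2, g2'⟩
      · rw [g2]; simpa using hG0
      · rw [g2', fG_of_mem h1.1]
        have h3 := pw1 (q := q) (A := A1) (N := N) hcw (sq_nonneg ‖z.1 - z.2‖)
          (norm_sq_le (z.1 - z.2)) (hW z h2) (hw1 z h2 g2)
        refine h3.trans (le_of_eq ?_)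
        simp only [PP, TT, gs, hY]
        ring
    · refine mul_le_mul_of_nonneg_left ?_ (by norm_num)
      rw [indicator_of_mem h1]
      have hs0 : 0 ≤ sq (z.1 - z.2) := sq_nonneg' _
      have hYX : 0 ≤ A2 ^ 2 * Y * X := by positivity
      have hYQ : 0 ≤ A2 ^ 2 * Y * Q * X := by positivity
      have hCe : Cst = A2 ^ 2 * Y * X + A2 ^ 2 * Y * Q * X := by rw [hC]; ring
      rcases g3 with g3 | ⟨g3, g3'⟩ | ⟨g3, g3'⟩
      · rw [g3]; simpa using hC0
      · rw [g3']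
        by_cases hu' : -(3 / 4 * l) ≤ u z.1
        · have hr2 : r ^ 2 ≤ sq (z.1 - z.2) := g3.resolve_right (not_lt.2 hu')
          refine (pw2 (A := A2) p hcw hc1 hr hr2 hl hb hD0 hm hp hu' (hW z h2)
            (hw1 z h2 hu')).trans ?_
          rw [mul_div_assoc, ← hY, ← hX, ← hQ, hCe]
          linarith
        · refine (pw3 (A := A2) hcw hc1 hs0 hl ha hb hm hD (not_le.mp hu') (hW z h2)
            (hw2 z h2)).trans ?_
          rw [mul_div_assoc, ← hY, ← hX, hCe]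
          linarith
      · rw [g3']
        refine (pw5 (A := A2) hcw hc1 hs0 hb hD0 g3 hS (hW z h2) (hw2 z h2)).trans ?_
        rw [mul_div_assoc, ← hY, ← hX, hCe]
        linarith
  have hcu : ContinuousOn (PP a b D q A1 Y l u) O := by
    unfold PP
    exact continuousOn_const.mul ((((continuousOn_const.mul hu).sub
      (continuousOn_const.mul hu.abs)).sub continuousOn_const).rexp)
  have hcT : ContinuousOn (TT c1 l u) O := by
    unfold TT
    exact continuousOn_const.mul ((continuousOn_const.mul (continuousOn_const.add hu)).rexp)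
  have hT0 : ∀ x ∈ O, 0 < TT c1 l u x := fun x _ => mul_pos hc1 (Real.exp_pos _)
  obtain ⟨i1, i2⟩ := gint hO hv0 hv hcu hcT hPP0 hT0
    (c := A1 ^ 2 * Y * X / √c1 ^ (n + 4)) (by positivity)
    (fun x _ => PP_le hD0 hY0.le hc1 hq x)
  have hvO : volume (O ×ˢ O) ≤ ENNReal.ofReal (v ^ 2) := by
    rw [Measure.volume_eq_prod, Measure.prod_prod, pow_two, ENNReal.ofReal_mul hv0]
    exact mul_le_mul' hv hv
  have i3 : Integrable ((O ×ˢ O).indicator (fun _ : VV n => Cst)) := by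
    rw [integrable_indicator_iff (hO.measurableSet.prod hO.measurableSet)]
    exact integrableOn_const (lt_of_le_of_lt hvO ENNReal.ofReal_lt_top).ne
  have i4 : ∫ z, (O ×ˢ O).indicator (fun _ : VV n => Cst) z ≤ v ^ 2 * Cst := by
    rw [integral_indicator (hO.measurableSet.prod hO.measurableSet), setIntegral_const, smul_eq_mul,
      Measure.real]
    exact mul_le_mul_of_nonneg_right
      (ENNReal.toReal_le_of_le_ofReal (sq_nonneg _) hvO) hC0
  have i5 : Integrable (fun z => 2 * fG O (PP a b D q A1 Y l u) (TT c1 l u) z +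
      2 * (O ×ˢ O).indicator (fun _ => Cst) z) := (i1.const_mul 2).add (i3.const_mul 2)
  refine ⟨_, i5, fun z => ⟨h0 z, hpt z⟩, ?_⟩
  rw [integral_add (i1.const_mul 2) (i3.const_mul 2), integral_const_mul, integral_const_mul]
  have j0 : (0 : ℝ) ≤ 2 := by norm_num
  have j1 := add_le_add (mul_le_mul_of_nonneg_left i2 j0) (mul_le_mul_of_nonneg_left i4 j0)
  refine j1.trans (le_of_eq ?_)
  rw [hC]
  ring

end Vale.Agent.P088.HY.S3
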