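import Mathlib

/-!
# P088, stage 3, P4: the constants
-/

open MeasureTheory Set Filter
open scoped ContDiff Matrix Topology

noncomputable section

namespace Vale.Agent.P088.HY.S3

theorem growth {m : ℝ} : ∃ C : ℝ, 0 ≤ C ∧ ∀ R : ℝ, 1 ≤ R →
    R ^ m * Real.exp (-(R / 10)) ≤ C := by
  refine ⟨10 ^ ⌈m⌉₊ * (⌈m⌉₊.factorial : ℝ), by positivity, fun R hR => ?_⟩
  have h1 : R ^ m ≤ R ^ ⌈m⌉₊ := by
    rw [← Real.rpow_natCast]
    exact Real.rpow_le_rpow_of_exponent_le hR (Nat.le_ceil m)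
  have h2 := Real.pow_div_factorial_le_exp (R / 10) (by positivity) ⌈m⌉₊
  rw [div_le_iff₀ (by positivity), div_pow, div_le_iff₀ (by positivity)] at h2
  have h3 : Real.exp (R / 10) * Real.exp (-(R / 10)) = 1 := by
    rw [← Real.exp_add, add_neg_cancel, Real.exp_zero]
  calc R ^ m * Real.exp (-(R / 10)) ≤ R ^ ⌈m⌉₊ * Real.exp (-(R / 10)) :=
        mul_le_mul_of_nonneg_right h1 (Real.exp_pos _).le
    _ ≤ (Real.exp (R / 10) * (⌈m⌉₊.factorial : ℝ) * 10 ^ ⌈m⌉₊) * Real.exp (-(R / 10)) :=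
        mul_le_mul_of_nonneg_right h2 (Real.exp_pos _).le
    _ = (Real.exp (R / 10) * Real.exp (-(R / 10))) * (10 ^ ⌈m⌉₊ * (⌈m⌉₊.factorial : ℝ)) := by ring
    _ = _ := by rw [h3, one_mul]

theorem er_num {n p mN : ℕ} {a c C₁ C C' R kap l s δ t v aC A1 A2 g0 : ℝ} (hn : 0 < n) (hR : 1 ≤ R)
    (hkap : kap = Real.exp l) (hl : 0 ≤ l) (hs : 0 ≤ s) (hc : 0 < c)
    (ht : t = 1 / R ^ 2) (hA1 : 0 ≤ A1) (hA12 : A1 ≤ A2)
    (hA2 : A2 = aC * R ^ mN * (R ^ C * kap ^ s * δ)) (hg0 : 0 ≤ g0)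
    (hC'1 : 4 * Real.exp (2 * C₁) / c * (g0 / √(c / n) ^ (n + 4) * v ^ 2 +
      (1 + p.factorial / (c / (2 * n)) ^ p) * (v ^ 2) ^ 2) * aC ^ 2 ≤ C')
    (hC'2 : C₁ + 4 * p + 2 * mN + 2 * C ≤ C') :
    2 * (2 * (Real.exp (2 * C₁) / (c * R ^ (-C₁)) * Real.exp (-((a + (n + 4 : ℕ)) * l))) *
        (A1 ^ 2 * g0 / √(c / n) ^ (n + 4) * v ^ 2 +
          A2 ^ 2 * (1 + p.factorial / (2 * (c / n) * (t / 2) ^ 2) ^ p) * (v ^ 2) ^ 2)) ≤
      C' * R ^ C' * kap ^ (4 * s) * δ ^ 2 * kap ^ (-(n + 4 + a) : ℝ) := by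
  have hn0 : (0 : ℝ) < n := by exact_mod_cast hn
  have hR0 : 0 < R := by linarith
  have hk1 : 1 ≤ kap := by rw [hkap]; exact Real.one_le_exp hl
  have hk0 : 0 < kap := by linarith
  set H := g0 / √(c / n) ^ (n + 4) * v ^ 2 + (1 + p.factorial / (c / (2 * n)) ^ p) * (v ^ 2) ^ 2
    with hH
  have hsq : 0 < √(c / n) := Real.sqrt_pos.2 (div_pos hc hn0)
  have hR4 : (1 : ℝ) ≤ R ^ (4 * p) := one_le_pow₀ hR
  have hbr : A1 ^ 2 * g0 / √(c / n) ^ (n + 4) * v ^ 2 +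
      A2 ^ 2 * (1 + p.factorial / (2 * (c / n) * (t / 2) ^ 2) ^ p) * (v ^ 2) ^ 2 ≤
      A2 ^ 2 * (R ^ (4 * p) * H) := by
    have h1 : A1 ^ 2 ≤ A2 ^ 2 := pow_le_pow_left₀ hA1 hA12 2
    have h2 : A1 ^ 2 * g0 / √(c / n) ^ (n + 4) * v ^ 2 ≤
        A2 ^ 2 * (R ^ (4 * p) * (g0 / √(c / n) ^ (n + 4) * v ^ 2)) := by
      have h3 : 0 ≤ g0 / √(c / n) ^ (n + 4) * v ^ 2 := by positivity
      calc A1 ^ 2 * g0 / √(c / n) ^ (n + 4) * v ^ 2 =
            A1 ^ 2 * (1 * (g0 / √(c / n) ^ (n + 4) * v ^ 2)) := by ring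
        _ ≤ _ := mul_le_mul h1 (mul_le_mul_of_nonneg_right hR4 h3) (by positivity) (sq_nonneg _)
    have h4 : (2 * (c / n) * (t / 2) ^ 2) ^ p = (c / (2 * n)) ^ p / R ^ (4 * p) := by
      rw [pow_mul, ← div_pow]
      congr 1
      rw [ht]
      field_simp
    have h5 : 1 + p.factorial / (2 * (c / n) * (t / 2) ^ 2) ^ p ≤
        R ^ (4 * p) * (1 + p.factorial / (c / (2 * n)) ^ p) := by
      rw [h4, div_div_eq_mul_div]
      have h6 : (p.factorial : ℝ) * R ^ (4 * p) / (c / (2 * n)) ^ p =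
        R ^ (4 * p) * (p.factorial / (c / (2 * n)) ^ p) := by ring
      rw [h6]
      linarith
    have h7 : A2 ^ 2 * (1 + p.factorial / (2 * (c / n) * (t / 2) ^ 2) ^ p) * (v ^ 2) ^ 2 ≤
        A2 ^ 2 * (R ^ (4 * p) * (1 + p.factorial / (c / (2 * n)) ^ p)) * (v ^ 2) ^ 2 :=
      mul_le_mul_of_nonneg_right (mul_le_mul_of_nonneg_left h5 (sq_nonneg _)) (by positivity)
    refine (add_le_add h2 h7).trans (le_of_eq ?_)
    rw [hH]; ring
  have hH0 : 0 ≤ H := by positivity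
  have e1 : Real.exp (-((a + (n + 4 : ℕ)) * l)) = kap ^ (-(n + 4 + a) : ℝ) := by
    rw [hkap, ← Real.exp_mul]
    congr 1
    push_cast
    ring
  have e2 : Real.exp (2 * C₁) / (c * R ^ (-C₁)) = Real.exp (2 * C₁) / c * R ^ C₁ := by
    rw [Real.rpow_neg hR0.le]
    field_simp
  rw [e1, e2]
  have hkn : 0 < kap ^ (-(n + 4 + a) : ℝ) := by positivity
  have hfin : A2 ^ 2 ≤ aC ^ 2 * (R ^ (2 * mN) * (R ^ C * R ^ C)) * (kap ^ (4 * s) * δ ^ 2) := by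
    have h1 : kap ^ s * kap ^ s ≤ kap ^ (4 * s) := by
      rw [← Real.rpow_add hk0]
      exact Real.rpow_le_rpow_of_exponent_le hk1 (by linarith)
    have h2 : A2 ^ 2 = aC ^ 2 * (R ^ (2 * mN) * (R ^ C * R ^ C)) * ((kap ^ s * kap ^ s) * δ ^ 2) := by
      rw [hA2]; ring
    rw [h2]
    exact mul_le_mul_of_nonneg_left (mul_le_mul_of_nonneg_right h1 (sq_nonneg _)) (by positivity)
  have hexp : R ^ C₁ * (R ^ (4 * p) * (R ^ (2 * mN) * (R ^ C * R ^ C))) ≤ R ^ C' := by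
    rw [← Real.rpow_natCast R (4 * p), ← Real.rpow_natCast R (2 * mN), ← Real.rpow_add hR0,
      ← Real.rpow_add hR0, ← Real.rpow_add hR0, ← Real.rpow_add hR0]
    refine Real.rpow_le_rpow_of_exponent_le hR ?_
    push_cast
    linarith
  calc 2 * (2 * (Real.exp (2 * C₁) / c * R ^ C₁ * kap ^ (-(n + 4 + a) : ℝ)) *
        (A1 ^ 2 * g0 / √(c / n) ^ (n + 4) * v ^ 2 +
          A2 ^ 2 * (1 + p.factorial / (2 * (c / n) * (t / 2) ^ 2) ^ p) * (v ^ 2) ^ 2))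
      ≤ 2 * (2 * (Real.exp (2 * C₁) / c * R ^ C₁ * kap ^ (-(n + 4 + a) : ℝ)) *
        (aC ^ 2 * (R ^ (2 * mN) * (R ^ C * R ^ C)) * (kap ^ (4 * s) * δ ^ 2) *
          (R ^ (4 * p) * H))) := by
        refine mul_le_mul_of_nonneg_left (mul_le_mul_of_nonneg_left (hbr.trans ?_)
          (by positivity)) (by norm_num)
        exact mul_le_mul_of_nonneg_right hfin (by positivity)
    _ = (4 * Real.exp (2 * C₁) / c * H * aC ^ 2) *
        (R ^ C₁ * (R ^ (4 * p) * (R ^ (2 * mN) * (R ^ C * R ^ C)))) *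
        (kap ^ (4 * s) * δ ^ 2 * kap ^ (-(n + 4 + a) : ℝ)) := by ring
    _ ≤ C' * R ^ C' * (kap ^ (4 * s) * δ ^ 2 * kap ^ (-(n + 4 + a) : ℝ)) := by
        refine mul_le_mul_of_nonneg_right (mul_le_mul hC'1 hexp (by positivity)
          (le_trans (by positivity) hC'1)) (by positivity)
    _ = _ := by ring

/-- The jets. -/
theorem jt_num {m3 : ℕ} {cj C C' R kap l s δ M N q D nn b u L lam : ℝ} {m : ℕ} (hR : 1 ≤ R)
    (hkap : kap = Real.exp l) (hl : 0 ≤ l) (hs : 0 ≤ s) (hδ : 0 ≤ δ) (hb : 0 ≤ b)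
    (hq : q = D + nn + 6 + b) (hlam : 0 ≤ lam) (hcj : 0 ≤ cj)
    (hM : M = L * R ^ m3 * (R ^ C * kap ^ s * δ))
    (hC'1 : 96 * cj * L ≤ C') (hC'2 : m3 + C ≤ C') (hC'0 : 0 ≤ C') :
    96 * cj * M * Real.exp (-(2 * l)) * (Real.exp (N * (R * u) - (q - 2) * |R * u|)) * lam ^ m ≤
      C' * R ^ C' * kap ^ (2 * s - 2) * δ * Real.exp (N * R * u) *
        Real.exp (-((D + nn + 4) * R * |u|)) * lam ^ m := by
  have hR0 : 0 < R := by linarith
  have hk1 : 1 ≤ kap := by rw [hkap]; exact Real.one_le_exp hl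
  have hk0 : 0 < kap := by linarith
  have h1 : Real.exp (N * (R * u) - (q - 2) * |R * u|) ≤
      Real.exp (N * R * u) * Real.exp (-((D + nn + 4) * R * |u|)) := by
    rw [← Real.exp_add]
    refine Real.exp_le_exp.2 ?_
    rw [abs_mul, abs_of_pos hR0, hq]
    have : 0 ≤ b * (R * |u|) := by positivity
    nlinarith
  have h2 : kap ^ s * Real.exp (-(2 * l)) ≤ kap ^ (2 * s - 2) := by
    have : Real.exp (-(2 * l)) = kap ^ (-2 : ℝ) := by
      rw [hkap, ← Real.exp_mul]; congr 1; ring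
    rw [this, ← Real.rpow_add hk0]
    exact Real.rpow_le_rpow_of_exponent_le hk1 (by linarith)
  have h3 : R ^ m3 * R ^ C ≤ R ^ C' := by
    rw [← Real.rpow_natCast R m3, ← Real.rpow_add hR0]
    exact Real.rpow_le_rpow_of_exponent_le hR hC'2
  refine mul_le_mul_of_nonneg_right ?_ (by positivity)
  calc 96 * cj * M * Real.exp (-(2 * l)) * (Real.exp (N * (R * u) - (q - 2) * |R * u|))
      = (96 * cj * L) * ((R ^ m3 * R ^ C) * ((kap ^ s * Real.exp (-(2 * l))) * (δ *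
        Real.exp (N * (R * u) - (q - 2) * |R * u|)))) := by rw [hM]; ring
    _ ≤ C' * (R ^ C' * (kap ^ (2 * s - 2) * (δ * (Real.exp (N * R * u) *
        Real.exp (-((D + nn + 4) * R * |u|)))))) := by
        refine mul_le_mul hC'1 (mul_le_mul h3 (mul_le_mul h2
          (mul_le_mul_of_nonneg_left h1 hδ) (by positivity) (by positivity)) (by positivity)
          (by positivity)) (by positivity) hC'0
    _ = _ := by ring

/-- The values far from the selected point. -/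
theorem fa_num {mN : ℕ} {aC C R kap s δ A Cg N ν D η : ℝ} (hR : 1 ≤ R) (hk1 : 1 ≤ kap)
    (hkη : kap ≤ Real.exp (η * R)) (hη : η ≤ 1 / 50) (hs1 : s ≤ 1) (hδ0 : 0 ≤ δ)
    (hδ1 : δ ≤ 1) (haC : 0 ≤ aC) (hA : A = aC * R ^ mN * (R ^ C * kap ^ s * δ))
    (hN : N = ν + D) (hν : 0 ≤ ν) (hD : 10 ≤ D)
    (hCg : R ^ (mN + C : ℝ) * Real.exp (-(R / 10)) ≤ Cg) :
    A * Real.exp (-(8 / 10 * N * R)) ≤ aC * Cg * Real.exp (-(ν * R / 2)) := by
  have hR0 : 0 < R := by linarith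
  have h1 : kap ^ s ≤ Real.exp (η * R) := by
    calc kap ^ s ≤ kap ^ (1 : ℝ) := Real.rpow_le_rpow_of_exponent_le hk1 hs1
      _ = kap := Real.rpow_one _
      _ ≤ _ := hkη
  have h2 : R ^ mN * R ^ C = R ^ (mN + C : ℝ) := by
    rw [← Real.rpow_natCast R mN, ← Real.rpow_add hR0]
  have h3 : Real.exp (η * R) * Real.exp (-(8 / 10 * N * R)) ≤
      Real.exp (-(R / 10)) * Real.exp (-(ν * R / 2)) := by
    rw [← Real.exp_add, ← Real.exp_add]
    refine Real.exp_le_exp.2 ?_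
    rw [hN]
    have h4 : 0 ≤ (8 / 10 * (ν + D) - η - 1 / 10 - ν / 2) * R :=
      mul_nonneg (by linarith) hR0.le
    linarith
  calc A * Real.exp (-(8 / 10 * N * R))
      = aC * ((R ^ mN * R ^ C) * (δ * (kap ^ s * Real.exp (-(8 / 10 * N * R))))) := by
        rw [hA]; ring
    _ ≤ aC * (R ^ (mN + C : ℝ) * (1 * (Real.exp (-(R / 10)) * Real.exp (-(ν * R / 2))))) := by
        rw [h2]
        refine mul_le_mul_of_nonneg_left (mul_le_mul_of_nonneg_left ?_ (by positivity)) haC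
        refine mul_le_mul hδ1 (le_trans (mul_le_mul_of_nonneg_right h1 (Real.exp_pos _).le) h3)
          (by positivity) zero_le_one
    _ = aC * (R ^ (mN + C : ℝ) * Real.exp (-(R / 10))) * Real.exp (-(ν * R / 2)) := by ring
    _ ≤ aC * Cg * Real.exp (-(ν * R / 2)) :=
        mul_le_mul_of_nonneg_right (mul_le_mul_of_nonneg_left hCg haC) (Real.exp_pos _).le

end Vale.Agent.P088.HY.S3
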